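import Vale.Agent.Lib.P043.Main

namespace Vale.Agent.Results.P043.A_level_separated

/-- Let `F` be a finite subset of `ℤ^d` such that every nonzero homomorphism `l : ℤ^d → ℤ` has a
level set `{l = v}` meeting `F` in a number of points that is equal to `1`, or, when `|F|` is a
power of a prime `p`, is not divisible by `p`.  Then there is `Q > 0`, depending only on `F`, such
that every tiling `A ⊕ F = ℤ^d` is invariant under the lattice `Q ℤ^d`. -/
theorem result {d : ℕ} (F : Finset (Fin d → ℤ))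
    (hsep : ∀ l : (Fin d → ℤ) →+ ℤ, l ≠ 0 → ∃ v : ℤ,
      (F.filter (fun f => l f = v)).card = 1 ∨
      ∃ p a : ℕ, p.Prime ∧ F.card = p ^ a ∧ ¬ p ∣ (F.filter (fun f => l f = v)).card) :
    ∃ Q : ℕ, 0 < Q ∧ ∀ A : Set (Fin d → ℤ),
      (∀ x, ∃! q : (Fin d → ℤ) × (Fin d → ℤ), q.1 ∈ A ∧ q.2 ∈ F ∧ q.1 + q.2 = x) →
      ∀ h : Fin d → ℤ, (∀ i, (Q : ℤ) ∣ h i) → ∀ x, x + h ∈ A ↔ x ∈ A :=
  Vale.Agent.Lib.P043.main_theorem F hsep

end Vale.Agent.Results.P043.A_level_separated
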